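import Vale.Agent.P369.H499.Final

namespace Vale.Agent.Results.P369.EntropyPhotonNumber

open Vale.Agent.P369 (Conf)
open Vale.Agent.P369.Sys

/-- **The entropy photon-number inequality** (conjectured by Guha, Erkmen and Shapiro), for every
number of modes, every transmissivity and every pair of input states of finite mean photon
number: the output state of the beam splitter exists, is a state of finite mean photon number, and
its entropy photon number is at least the convex combination of those of the inputs. -/
theorem result {n : ℕ} (hn : 1 ≤ n) {η : ℝ} (h0 : 0 ≤ η) (h1 : η ≤ 1)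
    {H K : Type} [NormedAddCommGroup H] [InnerProductSpace ℂ H] [CompleteSpace H]
    [NormedAddCommGroup K] [InnerProductSpace ℂ K] [CompleteSpace K]
    (e : Conf n → H) (he : IsNumberBasis e)
    (f : Conf n → Conf n → K) (hf : IsNumberBasis fun x : Conf n × Conf n => f x.1 x.2)
    (ρA ρB : H →L[ℂ] H) (hA : IsState e ρA) (hB : IsState e ρB)
    (eA : FiniteEnergy e ρA) (eB : FiniteEnergy e ρB) :
    (∃ ρC : H →L[ℂ] H, IsOutput η e f ρA ρB ρC) ∧
    ∀ ρC : H →L[ℂ] H, IsOutput η e f ρA ρB ρC → IsState e ρC ∧ FiniteEnergy e ρC ∧
      η * photonNumber e ρA + (1 - η) * photonNumber e ρB ≤ photonNumber e ρC :=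
  Vale.Agent.P369Main.epni hn h0 h1 e he f hf ρA ρB hA hB eA eB

end Vale.Agent.Results.P369.EntropyPhotonNumber
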